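import Vale.Agent.P266.Run1
import Vale.Agent.P266.Run2
import Vale.Agent.P266.Run3

namespace Vale.Agent.Results.P266.Counterexample

open Vale.Agent.P266

theorem result :
    (∃ (A : Type) (_ : CommRing A) (_ : IsDomain A) (_ : Algebra ℂ A),
      Algebra.FiniteType ℂ A ∧ Module.Free A (Derivation ℂ A A) ∧ ¬ IsRegularRing A) ∧
    ¬ ∀ (A : Type) [CommRing A] [IsDomain A] [Algebra ℂ A] [Algebra.FiniteType ℂ A],
      Module.Projective A (Derivation ℂ A A) → IsRegularRing A := by
  have h := main_of_checks run_one run_small run_c12 run_c13 run_c23 run_a12 run_a11 run_a23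
    run_a14 run_loc run_g run_fib run_mon run_u run_b0 run_b1 run_b2
  refine ⟨h, fun H => ?_⟩
  obtain ⟨B, _, _, _, h1, h2, h3⟩ := h
  exact h3 (H B inferInstance)

end Vale.Agent.Results.P266.Counterexample
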